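import Mathlib
import Vale.Agent.P064.Defs
import Vale.Agent.P064.Main

namespace Vale.Agent.Results.P064.A_full

open Vale.Agent.P064

/-- The second Kahn-Kalai conjecture: `p_c(n,H) ≤ C p_E(n,H) log n` with a universal `C`. -/
theorem result :
    ∃ C : ℝ, 0 < C ∧
      ∀ (n : ℕ), 2 ≤ n → ∀ (V : Type) [Fintype V] (H : SimpleGraph V),
        H.edgeSet.Nonempty → Fintype.card V ≤ n →
        pc n H ≤ C * pE n H * Real.log n :=
  ⟨384 * KK, mul_pos (by norm_num) KK_pos, fun _ hn _ _ H hH hV => second_kk hn H hH hV⟩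

end Vale.Agent.Results.P064.A_full
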